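import Vale.Agent.Lib.P098.RegFinal
import Vale.Agent.Lib.P098.W5Cone

/-!
P098.  Nonflat pinched classical cones of the one-phase problem are not minimizers.

Let `u` be a classical one-homogeneous solution of the one-phase problem on an open cone `U`
in `ℝ^(k+2)` containing the closed positive phase minus the origin.  Assume that `u` is not
flat (`D²u` does not vanish identically on the positive phase) and that the free boundary
satisfies the pointwise pinching `p tr((D²u)³) ≤ (1 - 2p) H |D²u|²` for some `p` in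
`[1/2, 2]` with `k²/4 < p (k + 1)`.  Let `w` be the global function equal to `u` on the
positive phase and to zero elsewhere.  Then there is a nonnegative Lipschitz function `v`
that agrees with `w` outside a ball `B_R` and has strictly smaller one-phase energy
`J(v; B_r) = ∫_{B_r} (|∇v|² + 1_{v > 0})` than `w` on every ball `B_r` with `r > R`.

No nondegeneracy of the Hessian is assumed: the test function `|D²u|^p |x|^(p - k/2)` of the
nondegenerate case is replaced by `(|D²u|² + δ |x|⁻²)^(p/2) |x|^(p - k/2)`, which is a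
subsolution of the linearized problem up to an error that is small in the mean for small `δ`;
the boundary inequality for the regularised function uses that free boundaries of classical
cones are mean convex, which is proved by the maximum principle for `|∇u|²` on the link.
The competitor is `v = w ∘ Φ⁻¹` with `Φ = id + t ρ ∇u`.

The class is not empty in `ℝ^5`, the first dimension in which the existence of nonflat
minimizing cones is open: the rotationally symmetric cone `u = c |x'| G(x₄ / |x'|)` on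
`ℝ^4 × ℝ`, with `G(τ) = √(1 + τ²) (1 - τ²/2) - (3/2) τ arsinh τ`, satisfies all the hypotheses
with `k = 3` and `p = 3/4`.
-/

namespace Vale.Agent.Results.P098.NonflatPinchedConeR5

open Finset MeasureTheory

/-- `u` is a classical one-homogeneous solution of the one-phase problem on the open cone `U`
(not containing the origin): `C^4`, positively one-homogeneous, harmonic where positive, and
with gradient of length one on its zero set (the free boundary). -/
def IsClassicalCone {n : ℕ} (U : Set (EuclideanSpace ℝ (Fin n)))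
    (u : EuclideanSpace ℝ (Fin n) → ℝ) : Prop :=
  IsOpen U ∧ (0 : EuclideanSpace ℝ (Fin n)) ∉ U ∧
    (∀ x ∈ U, ∀ t : ℝ, 0 < t → t • x ∈ U) ∧
    ContDiffOn ℝ 4 u U ∧
    (∀ x ∈ U, ∀ t : ℝ, 0 < t → u (t • x) = t * u x) ∧
    (∀ x ∈ U, 0 < u x → Laplacian.laplacian u x = 0) ∧
    (∀ x ∈ U, u x = 0 → ‖gradient u x‖ = 1)

/-- The positive phase `Ω = {u > 0}` inside `U`. -/
def posPhase {n : ℕ} (U : Set (EuclideanSpace ℝ (Fin n)))
    (u : EuclideanSpace ℝ (Fin n) → ℝ) : Set (EuclideanSpace ℝ (Fin n)) :=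
  {x ∈ U | 0 < u x}

/-- The Hessian of `u` at `x` as a bilinear form: `D²u(x)(v, w)`. -/
noncomputable def hess {n : ℕ} (u : EuclideanSpace ℝ (Fin n) → ℝ)
    (x v w : EuclideanSpace ℝ (Fin n)) : ℝ :=
  fderiv ℝ (fderiv ℝ u) x v w

/-- Squared Hilbert-Schmidt norm of the Hessian of `u` at `x`, in standard coordinates. -/
noncomputable def hessSq {n : ℕ} (u : EuclideanSpace ℝ (Fin n) → ℝ)
    (x : EuclideanSpace ℝ (Fin n)) : ℝ :=
  ∑ i, ∑ j, hess u x (EuclideanSpace.single i 1) (EuclideanSpace.single j 1) ^ 2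

/-- Trace of the cube of the Hessian of `u` at `x`. -/
noncomputable def hessCube {n : ℕ} (u : EuclideanSpace ℝ (Fin n) → ℝ)
    (x : EuclideanSpace ℝ (Fin n)) : ℝ :=
  ∑ i, ∑ j, ∑ l,
    hess u x (EuclideanSpace.single i 1) (EuclideanSpace.single j 1)
      * hess u x (EuclideanSpace.single j 1) (EuclideanSpace.single l 1)
      * hess u x (EuclideanSpace.single l 1) (EuclideanSpace.single i 1)

/-- `-D²u(∇u, ∇u)`; on the free boundary (where `|∇u| = 1` and `Δu = 0`) this is its mean
curvature with respect to the normal `∇u`. -/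
noncomputable def meanCurv {n : ℕ} (u : EuclideanSpace ℝ (Fin n) → ℝ)
    (x : EuclideanSpace ℝ (Fin n)) : ℝ :=
  -(hess u x (gradient u x) (gradient u x))

/-- The global function attached to `(U, u)`: equal to `u` on the positive phase and to zero
elsewhere. -/
noncomputable def solution {n : ℕ} (U : Set (EuclideanSpace ℝ (Fin n)))
    (u : EuclideanSpace ℝ (Fin n) → ℝ) : EuclideanSpace ℝ (Fin n) → ℝ :=
  (posPhase U u).indicator u

/-- The energy density `|∇v|² + 1_{v > 0}` of the one-phase problem. -/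
noncomputable def density {n : ℕ} (v : EuclideanSpace ℝ (Fin n) → ℝ)
    (x : EuclideanSpace ℝ (Fin n)) : ℝ :=
  ‖gradient v x‖ ^ 2 + {y | 0 < v y}.indicator (fun _ => (1 : ℝ)) x

/-- The one-phase Bernoulli energy `J(v; B) = ∫_B (|∇v|² + 1_{v > 0})`. -/
noncomputable def energy {n : ℕ} (v : EuclideanSpace ℝ (Fin n) → ℝ)
    (B : Set (EuclideanSpace ℝ (Fin n))) : ℝ :=
  ∫ x in B, density v x

/-- Part (1): nonflat pinched classical cones are not minimizers. -/
theorem not_minimizing (k : ℕ) (U : Set (EuclideanSpace ℝ (Fin (k + 2))))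
    (u : EuclideanSpace ℝ (Fin (k + 2)) → ℝ) (hsol : IsClassicalCone U u)
    (hcl : closure (posPhase U u) ⊆ insert 0 U)
    (hnf : ∃ x ∈ posPhase U u, hessSq u x ≠ 0)
    (p : ℝ) (hp1 : 1 / 2 ≤ p) (hp2 : p ≤ 2) (hp3 : (k : ℝ) ^ 2 / 4 < p * ((k : ℝ) + 1))
    (hpinch : ∀ x ∈ U, u x = 0 →
      p * hessCube u x ≤ (1 - 2 * p) * meanCurv u x * hessSq u x) :
    ∃ (v : EuclideanSpace ℝ (Fin (k + 2)) → ℝ) (R : ℝ) (K : NNReal),
      LipschitzWith K (solution U u) ∧ LipschitzWith K v ∧ (∀ x, 0 ≤ v x) ∧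
      (∀ x, R ≤ ‖x‖ → v x = solution U u x) ∧
      ∀ r : ℝ, R < r →
        IntegrableOn (density v) (Metric.ball 0 r) ∧
        IntegrableOn (density (solution U u)) (Metric.ball 0 r) ∧
        energy v (Metric.ball 0 r) < energy (solution U u) (Metric.ball 0 r) := by
  obtain ⟨hU, h0, hcone, hu, hhom, hharm, hfb⟩ := hsol
  have hdim : Module.finrank ℝ (EuclideanSpace ℝ (Fin (k + 2))) = k + 2 := by simp
  have hnf' : ∃ x ∈ {x ∈ U | 0 < u x},
      ∑ i, ∑ j, fderiv ℝ (fderiv ℝ u) x (EuclideanSpace.basisFun (Fin (k + 2)) ℝ i)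
        (EuclideanSpace.basisFun (Fin (k + 2)) ℝ j) ^ 2 ≠ 0 := by
    obtain ⟨x, hx, hS⟩ := hnf
    refine ⟨x, hx, ?_⟩
    simp only [EuclideanSpace.basisFun_apply]
    exact hS
  have hpinch' : ∀ x ∈ U, u x = 0 →
      p * ∑ i, ∑ j, ∑ l, fderiv ℝ (fderiv ℝ u) x (EuclideanSpace.basisFun (Fin (k + 2)) ℝ i)
            (EuclideanSpace.basisFun (Fin (k + 2)) ℝ j)
          * fderiv ℝ (fderiv ℝ u) x (EuclideanSpace.basisFun (Fin (k + 2)) ℝ j)
            (EuclideanSpace.basisFun (Fin (k + 2)) ℝ l)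
          * fderiv ℝ (fderiv ℝ u) x (EuclideanSpace.basisFun (Fin (k + 2)) ℝ l)
            (EuclideanSpace.basisFun (Fin (k + 2)) ℝ i)
        ≤ (1 - 2 * p) * (-(fderiv ℝ (fderiv ℝ u) x (gradient u x) (gradient u x)))
            * ∑ i, ∑ j, fderiv ℝ (fderiv ℝ u) x (EuclideanSpace.basisFun (Fin (k + 2)) ℝ i)
              (EuclideanSpace.basisFun (Fin (k + 2)) ℝ j) ^ 2 := by
    intro x hx hx0
    simp only [EuclideanSpace.basisFun_apply]
    exact hpinch x hx hx0
  exact Vale.Agent.Lib.P098.nonflat_pinched_not_minimizing k hdim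
    (EuclideanSpace.basisFun (Fin (k + 2)) ℝ) hU h0 hcone hu hhom hharm hfb hcl
    hnf' p hp1 hp2 hp3 hpinch'

/-- Part (2): the hypotheses of part (1) are satisfied by an explicit cone in `ℝ^5`. -/
theorem witness :
    ∃ (U : Set (EuclideanSpace ℝ (Fin 5))) (u : EuclideanSpace ℝ (Fin 5) → ℝ),
      IsClassicalCone U u ∧ closure (posPhase U u) ⊆ insert 0 U ∧
      (∃ x ∈ posPhase U u, hessSq u x ≠ 0) ∧ (∃ x ∈ U, u x = 0) ∧
      (∀ x ∈ U, u x = 0 →
        3 / 4 * hessCube u x ≤ (1 - 2 * (3 / 4)) * meanCurv u x * hessSq u x) :=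
  Vale.Agent.Lib.P098.witness5_closed

theorem result :
    (∀ (k : ℕ) (U : Set (EuclideanSpace ℝ (Fin (k + 2))))
      (u : EuclideanSpace ℝ (Fin (k + 2)) → ℝ), IsClassicalCone U u →
      closure (posPhase U u) ⊆ insert 0 U →
      (∃ x ∈ posPhase U u, hessSq u x ≠ 0) →
      ∀ p : ℝ, 1 / 2 ≤ p → p ≤ 2 → (k : ℝ) ^ 2 / 4 < p * ((k : ℝ) + 1) →
      (∀ x ∈ U, u x = 0 → p * hessCube u x ≤ (1 - 2 * p) * meanCurv u x * hessSq u x) →
      ∃ (v : EuclideanSpace ℝ (Fin (k + 2)) → ℝ) (R : ℝ) (K : NNReal),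
        LipschitzWith K (solution U u) ∧ LipschitzWith K v ∧ (∀ x, 0 ≤ v x) ∧
        (∀ x, R ≤ ‖x‖ → v x = solution U u x) ∧
        ∀ r : ℝ, R < r →
          IntegrableOn (density v) (Metric.ball 0 r) ∧
          IntegrableOn (density (solution U u)) (Metric.ball 0 r) ∧
          energy v (Metric.ball 0 r) < energy (solution U u) (Metric.ball 0 r)) ∧
    (∃ (U : Set (EuclideanSpace ℝ (Fin 5))) (u : EuclideanSpace ℝ (Fin 5) → ℝ),
      IsClassicalCone U u ∧ closure (posPhase U u) ⊆ insert 0 U ∧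
      (∃ x ∈ posPhase U u, hessSq u x ≠ 0) ∧ (∃ x ∈ U, u x = 0) ∧
      (∀ x ∈ U, u x = 0 →
        3 / 4 * hessCube u x ≤ (1 - 2 * (3 / 4)) * meanCurv u x * hessSq u x)) :=
  ⟨fun k U u hsol hcl hnf p hp1 hp2 hp3 hpinch =>
    not_minimizing k U u hsol hcl hnf p hp1 hp2 hp3 hpinch, witness⟩

end Vale.Agent.Results.P098.NonflatPinchedConeR5
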