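import Vale.Agent.Lib.P098.Unstable
import Vale.Agent.Lib.P098.WitnessClosure

/-!
P098.  Nondegenerate pinched classical cones of the one-phase problem are unstable.

Let `u` be a classical one-homogeneous solution of the one-phase problem on an open cone `U`
in `ℝ^(k+2)` containing the closed positive phase minus the origin.  Assume that `D²u` does
not vanish on the closed positive phase minus the origin and that the free boundary satisfies
the pointwise pinching `p tr((D²u)³) ≤ (1 - 2p) H |D²u|²` for some `p` in `[1/2, 2]` with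
`k²/4 < p (k + 1)`.  Then there is a `C²` function `φ` with compact support away from the
origin whose second variation
`∫_Ω |∇φ|² + ∫_Ω ∇(φ² H) · ∇u` (`= ∫_Ω |∇φ|² - ∫_∂Ω H φ²`) is negative.

The explicit rotationally symmetric cone in `ℝ^4` satisfies all these hypotheses with `k = 2`
and `p = 1/2`.
-/

namespace Vale.Agent.Results.P098.PinchedConeUnstable

open Finset MeasureTheory

/-- `u` is a classical one-homogeneous solution of the one-phase problem on the open cone `U`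
(not containing the origin): `C^4`, positively one-homogeneous, harmonic where positive, and
with gradient of length one on its zero set (the free boundary). -/
def IsClassicalCone {n : ℕ} (U : Set (EuclideanSpace ℝ (Fin n)))
    (u : EuclideanSpace ℝ (Fin n) → ℝ) : Prop :=
  IsOpen U ∧ (0 : EuclideanSpace ℝ (Fin n)) ∉ U ∧
    (∀ x ∈ U, ∀ t : ℝ, 0 < t → t • x ∈ U) ∧
    ContDiffOn ℝ 4 u U ∧
    (∀ x ∈ U, ∀ t : ℝ, 0 < t → u (t • x) = t * u x) ∧
    (∀ x ∈ U, 0 < u x → Laplacian.laplacian u x = 0) ∧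
    (∀ x ∈ U, u x = 0 → ‖gradient u x‖ = 1)

/-- The positive phase `Ω = {u > 0}` inside `U`. -/
def posPhase {n : ℕ} (U : Set (EuclideanSpace ℝ (Fin n)))
    (u : EuclideanSpace ℝ (Fin n) → ℝ) : Set (EuclideanSpace ℝ (Fin n)) :=
  {x ∈ U | 0 < u x}

/-- The Hessian of `u` at `x` as a bilinear form: `D²u(x)(v, w)`. -/
noncomputable def hess {n : ℕ} (u : EuclideanSpace ℝ (Fin n) → ℝ)
    (x v w : EuclideanSpace ℝ (Fin n)) : ℝ :=
  fderiv ℝ (fderiv ℝ u) x v w

/-- Squared Hilbert-Schmidt norm of the Hessian of `u` at `x`, in standard coordinates. -/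
noncomputable def hessSq {n : ℕ} (u : EuclideanSpace ℝ (Fin n) → ℝ)
    (x : EuclideanSpace ℝ (Fin n)) : ℝ :=
  ∑ i, ∑ j, hess u x (EuclideanSpace.single i 1) (EuclideanSpace.single j 1) ^ 2

/-- Trace of the cube of the Hessian of `u` at `x`. -/
noncomputable def hessCube {n : ℕ} (u : EuclideanSpace ℝ (Fin n) → ℝ)
    (x : EuclideanSpace ℝ (Fin n)) : ℝ :=
  ∑ i, ∑ j, ∑ l,
    hess u x (EuclideanSpace.single i 1) (EuclideanSpace.single j 1)
      * hess u x (EuclideanSpace.single j 1) (EuclideanSpace.single l 1)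
      * hess u x (EuclideanSpace.single l 1) (EuclideanSpace.single i 1)

/-- `-D²u(∇u, ∇u)`; on the free boundary (where `|∇u| = 1` and `Δu = 0`) this is its mean
curvature with respect to the normal `∇u`. -/
noncomputable def meanCurv {n : ℕ} (u : EuclideanSpace ℝ (Fin n) → ℝ)
    (x : EuclideanSpace ℝ (Fin n)) : ℝ :=
  -(hess u x (gradient u x) (gradient u x))

/-- The second variation of the one-phase energy at `u` in the direction `φ`,
`∫_Ω |∇φ|² - ∫_∂Ω H φ² dσ`, with the free boundary integral written as the solid integral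
`∫_Ω ∇(φ² H) · ∇u` (for a classical solution `∫_∂Ω g dσ = -∫_Ω ∇g · ∇u`, because `Δu = 0`
in `Ω` and `u = 0`, `|∇u| = 1` on `∂Ω`). -/
noncomputable def stabForm {n : ℕ} (U : Set (EuclideanSpace ℝ (Fin n)))
    (u φ : EuclideanSpace ℝ (Fin n) → ℝ) : ℝ :=
  (∫ x in posPhase U u, ‖gradient φ x‖ ^ 2)
    + ∫ x in posPhase U u, inner ℝ (gradient (fun y => φ y ^ 2 * meanCurv u y) x) (gradient u x)

/-- Part (1): nondegenerate pinched classical cones are unstable. -/
theorem unstable (k : ℕ) (U : Set (EuclideanSpace ℝ (Fin (k + 2))))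
    (u : EuclideanSpace ℝ (Fin (k + 2)) → ℝ) (hsol : IsClassicalCone U u)
    (hcl : closure (posPhase U u) ⊆ insert 0 U) (hne : (posPhase U u).Nonempty)
    (hnd : ∀ x ∈ closure (posPhase U u), x ≠ 0 → hessSq u x ≠ 0)
    (p : ℝ) (hp1 : 1 / 2 ≤ p) (hp2 : p ≤ 2) (hp3 : (k : ℝ) ^ 2 / 4 < p * ((k : ℝ) + 1))
    (hpinch : ∀ x ∈ U, u x = 0 →
      p * hessCube u x ≤ (1 - 2 * p) * meanCurv u x * hessSq u x) :
    ∃ φ : EuclideanSpace ℝ (Fin (k + 2)) → ℝ, ContDiff ℝ 2 φ ∧ HasCompactSupport φ ∧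
      (0 : EuclideanSpace ℝ (Fin (k + 2))) ∉ tsupport φ ∧ stabForm U u φ < 0 := by
  obtain ⟨hU, h0, hcone, hu, hhom, hharm, hfb⟩ := hsol
  have hdim : Module.finrank ℝ (EuclideanSpace ℝ (Fin (k + 2))) = k + 2 := by simp
  have hnd' : ∀ x ∈ closure {x ∈ U | 0 < u x}, x ≠ 0 →
      ∑ i, ∑ j, fderiv ℝ (fderiv ℝ u) x (EuclideanSpace.basisFun (Fin (k + 2)) ℝ i)
        (EuclideanSpace.basisFun (Fin (k + 2)) ℝ j) ^ 2 ≠ 0 := by
    intro x hx hx0
    simp only [EuclideanSpace.basisFun_apply]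
    exact hnd x hx hx0
  have hpinch' : ∀ x ∈ U, u x = 0 →
      p * ∑ i, ∑ j, ∑ l, fderiv ℝ (fderiv ℝ u) x (EuclideanSpace.basisFun (Fin (k + 2)) ℝ i)
            (EuclideanSpace.basisFun (Fin (k + 2)) ℝ j)
          * fderiv ℝ (fderiv ℝ u) x (EuclideanSpace.basisFun (Fin (k + 2)) ℝ j)
            (EuclideanSpace.basisFun (Fin (k + 2)) ℝ l)
          * fderiv ℝ (fderiv ℝ u) x (EuclideanSpace.basisFun (Fin (k + 2)) ℝ l)
            (EuclideanSpace.basisFun (Fin (k + 2)) ℝ i)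
        ≤ (1 - 2 * p) * (-(fderiv ℝ (fderiv ℝ u) x (gradient u x) (gradient u x)))
            * ∑ i, ∑ j, fderiv ℝ (fderiv ℝ u) x (EuclideanSpace.basisFun (Fin (k + 2)) ℝ i)
              (EuclideanSpace.basisFun (Fin (k + 2)) ℝ j) ^ 2 := by
    intro x hx hx0
    simp only [EuclideanSpace.basisFun_apply]
    exact hpinch x hx hx0
  exact Vale.Agent.Lib.P098.pinched_unstable k hdim
    (EuclideanSpace.basisFun (Fin (k + 2)) ℝ) hU h0 hcone hu hhom hharm hfb hcl hne
    hnd' p hp1 hp2 hp3 hpinch'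

/-- Part (2): the hypotheses of part (1) are satisfied by an explicit cone in `ℝ^4`. -/
theorem witness :
    ∃ (U : Set (EuclideanSpace ℝ (Fin 4))) (u : EuclideanSpace ℝ (Fin 4) → ℝ),
      IsClassicalCone U u ∧ closure (posPhase U u) ⊆ insert 0 U ∧ (posPhase U u).Nonempty ∧
      (∃ x ∈ U, u x = 0) ∧
      (∀ x ∈ closure (posPhase U u), x ≠ 0 → hessSq u x ≠ 0) ∧
      (∀ x ∈ U, u x = 0 →
        1 / 2 * hessCube u x ≤ (1 - 2 * (1 / 2)) * meanCurv u x * hessSq u x) := by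
  obtain ⟨U, u, hsol, hcl, hne, hfb, hnd, hcube⟩ := Vale.Agent.Lib.P098.witness_closed
  refine ⟨U, u, hsol, hcl, hne, hfb, ?_, ?_⟩
  · intro x hx hx0
    have hxU : x ∈ U := by
      rcases hcl hx with h | h
      · exact absurd h hx0
      · exact h
    exact hnd x hxU
  · intro x hx h0
    have h : hessCube u x < 0 := hcube x hx h0
    have e : (1 - 2 * (1 / 2 : ℝ)) = 0 := by norm_num
    rw [e, zero_mul, zero_mul]
    linarith

theorem result :
    (∀ (k : ℕ) (U : Set (EuclideanSpace ℝ (Fin (k + 2))))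
      (u : EuclideanSpace ℝ (Fin (k + 2)) → ℝ), IsClassicalCone U u →
      closure (posPhase U u) ⊆ insert 0 U → (posPhase U u).Nonempty →
      (∀ x ∈ closure (posPhase U u), x ≠ 0 → hessSq u x ≠ 0) →
      ∀ p : ℝ, 1 / 2 ≤ p → p ≤ 2 → (k : ℝ) ^ 2 / 4 < p * ((k : ℝ) + 1) →
      (∀ x ∈ U, u x = 0 → p * hessCube u x ≤ (1 - 2 * p) * meanCurv u x * hessSq u x) →
      ∃ φ : EuclideanSpace ℝ (Fin (k + 2)) → ℝ, ContDiff ℝ 2 φ ∧ HasCompactSupport φ ∧
        (0 : EuclideanSpace ℝ (Fin (k + 2))) ∉ tsupport φ ∧ stabForm U u φ < 0) ∧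
    (∃ (U : Set (EuclideanSpace ℝ (Fin 4))) (u : EuclideanSpace ℝ (Fin 4) → ℝ),
      IsClassicalCone U u ∧ closure (posPhase U u) ⊆ insert 0 U ∧ (posPhase U u).Nonempty ∧
      (∃ x ∈ U, u x = 0) ∧
      (∀ x ∈ closure (posPhase U u), x ≠ 0 → hessSq u x ≠ 0) ∧
      (∀ x ∈ U, u x = 0 →
        1 / 2 * hessCube u x ≤ (1 - 2 * (1 / 2)) * meanCurv u x * hessSq u x)) :=
  ⟨fun k U u hsol hcl hne hnd p hp1 hp2 hp3 hpinch =>
    unstable k U u hsol hcl hne hnd p hp1 hp2 hp3 hpinch, witness⟩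

end Vale.Agent.Results.P098.PinchedConeUnstable
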